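import Vale.Agent.P356.Main

/-!
P356 (area law on the square lattice): the area law across every cut whose collar energy is
conserved.
-/

namespace Vale.Agent.Results.P356.CommutingCut

open Finset Vale.Agent.P356

theorem result :
    (∀ (L q R : ℕ) (h : Finset (Site L) → Op (Site L) q), IsLocal R h →
      ∀ (E : ℝ) (Ω : Cfg (Site L) q → ℂ), SimpleEigen (ham h) E Ω →
      ∀ (A : Finset (Site L)) (w : ℕ) (T : Finset (Finset (Site L))),
      (∀ X, h X ≠ 0 → Crosses A X → X ∈ T) →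
      (∀ X ∈ T, ∀ x ∈ X, ∃ p ∈ bdry A, d1 x p.1 ≤ w) →
      Commute (∑ X ∈ T, h X) (ham h) →
      entropy A Ω ≤ 2 * (2 * (w : ℝ) + 1) ^ 2 * ((bdry A).card : ℝ) * Real.log q) ∧
    (∀ (L q R : ℕ) (h : Finset (Site L) → Op (Site L) q), IsLocal R h →
      ∀ (E : ℝ) (Ω : Cfg (Site L) q → ℂ), SimpleEigen (ham h) E Ω →
      ∀ (A : Finset (Site L)) (T : Finset (Finset (Site L))), (∀ X, X ∈ T ↔ Crosses A X) →
      Commute (∑ X ∈ T, h X) (ham h) →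
      entropy A Ω ≤ 2 * (4 * (R : ℝ) + 1) ^ 2 * ((bdry A).card : ℝ) * Real.log q) ∧
    (∀ (L q R D : ℕ) (h : Finset (Site L) → Op (Site L) q), IsLocal R h →
      ∀ (cl : Finset (Site L) → ℕ), (∀ X Y, cl X ≠ cl Y → Commute (h X) (h Y)) →
      (∀ X Y, h X ≠ 0 → h Y ≠ 0 → cl X = cl Y → ∀ x ∈ X, ∀ y ∈ Y, d1 x y ≤ D) →
      ∀ (E : ℝ) (Ω : Cfg (Site L) q → ℂ), SimpleEigen (ham h) E Ω →
      ∀ A : Finset (Site L),
      entropy A Ω ≤ 2 * (4 * (D : ℝ) + 1) ^ 2 * ((bdry A).card : ℝ) * Real.log q) :=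
  ⟨fun _ _ _ h hl E Ω hΩ A w T hT hw hc => collar h hl E Ω hΩ A w T hT hw hc,
    fun _ _ _ h hl E Ω hΩ A T hT hc => conserved h hl E Ω hΩ A T hT hc,
    fun _ _ _ D h hl cl hcomm hD E Ω hΩ A => clusters h hl E Ω hΩ D cl hcomm hD A⟩

end Vale.Agent.Results.P356.CommutingCut
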